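import Vale.Agent.P143.Exh

open MeasureTheory SimpleGraph Filter Topology

namespace Vale.Agent.Results.P143.FactorOfIID

/-- `T` is (the edge set of) a spanning tree of the subgraph `H`: its edges are edges of `H`, it
has no cycle, and it connects all the vertices of `H`. -/
def IsSpanningTree {V : Type*} {G : SimpleGraph V} (H : G.Subgraph) (T : Set (Sym2 V)) : Prop :=
  T ⊆ H.edgeSet ∧ (fromEdgeSet T).IsAcyclic ∧
    ∀ u ∈ H.verts, ∀ v ∈ H.verts, (fromEdgeSet T).Reachable u v

/-- For a finite connected subgraph `H` of `G`: the probability that the uniform spanning tree of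
`H` agrees with `η` on the finite edge set `A`. -/
noncomputable def ustProb {V : Type*} {G : SimpleGraph V} (H : G.Subgraph) (A : Finset G.edgeSet)
    (η : G.edgeSet → Bool) : ℝ :=
  ({T | IsSpanningTree H T ∧ ∀ e ∈ A, ((e : Sym2 V) ∈ T ↔ η e = true)}.ncard : ℝ)
    / ({T | IsSpanningTree H T}.ncard : ℝ)

/-- `H` is an increasing sequence of finite connected subgraphs with union `G`. -/
def IsExhaustion {V : Type*} (G : SimpleGraph V) (H : ℕ → G.Subgraph) : Prop :=
  (∀ n, (H n).verts.Finite) ∧ (∀ n, (H n).Connected) ∧ Monotone H ∧ ⨆ n, H n = ⊤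

/-- `μ` is the law of the free uniform spanning forest of `G`: the weak limit on `{0,1}^{E(G)}`
(that is, the limit on each finite cylinder event) of the uniform spanning trees of `H n`, for
every exhaustion `H` of `G`. -/
def IsFUSF {V : Type*} (G : SimpleGraph V) (μ : Measure (G.edgeSet → Bool)) : Prop :=
  IsProbabilityMeasure μ ∧
    ∀ H : ℕ → G.Subgraph, IsExhaustion G H → ∀ (A : Finset G.edgeSet) (η : G.edgeSet → Bool),
      Tendsto (fun n => ustProb (H n) A η) atTop (𝓝 (μ.real {ω | ∀ e ∈ A, ω e = η e}))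

/-- The law of i.i.d. uniform `[0,1]` variables `(U_v)_{v ∈ V}`. -/
noncomputable def iidUniform (V : Type*) : Measure (V → unitInterval) :=
  Measure.infinitePi fun _ : V => (volume : Measure unitInterval)

/-- `μ` is an `Aut(G)`-factor of IID: it is the law of `Φ(U)` for a measurable
`Φ : [0,1]^V → {0,1}^E` with `Φ(gU) = gΦ(U)` for all automorphisms `g` of `G` and all `U`, where
`(gU)_v = U_{g⁻¹v}` and `(gω)_e = ω_{g⁻¹e}`. -/
def IsFactorOfIID {V : Type*} (G : SimpleGraph V) (μ : Measure (G.edgeSet → Bool)) : Prop :=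
  ∃ Φ : (V → unitInterval) → (G.edgeSet → Bool), Measurable Φ ∧
    (∀ (g : G ≃g G) (U : V → unitInterval),
      Φ (fun v => U (g.symm v)) = fun e => Φ U (g.symm.mapEdgeSet e)) ∧
    (iidUniform V).map Φ = μ

/-- The (right) Cayley graph of the group `Γ` with respect to `S`: the edges are `{x, xs}`. -/
def cayleyGraph {Γ : Type*} [Group Γ] (S : Set Γ) : SimpleGraph Γ where
  Adj x y := x ≠ y ∧ (x⁻¹ * y ∈ S ∨ y⁻¹ * x ∈ S)
  symm := ⟨fun _ _ h => ⟨h.1.symm, h.2.symm⟩⟩
  loopless := ⟨fun _ h => h.1 rfl⟩

/-- Left multiplication by `γ` as an automorphism of the Cayley graph. -/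
def leftMul {Γ : Type*} [Group Γ] (S : Set Γ) (γ : Γ) : cayleyGraph S ≃g cayleyGraph S where
  toEquiv := Equiv.mulLeft γ
  map_rel_iff' {x y} := by simp [cayleyGraph, mul_assoc]

/-- `μ` is a `Γ`-factor of IID on the Cayley graph: it is the law of `Φ(U)` for a measurable
`Φ : [0,1]^Γ → {0,1}^E` with `Φ(γU) = γΦ(U)` for all `γ ∈ Γ` and all `U`, where
`(γU)_x = U_{γ⁻¹x}` and `(γω)_e = ω_{γ⁻¹e}`. -/
def IsGroupFactorOfIID {Γ : Type*} [Group Γ] (S : Set Γ)
    (μ : Measure ((cayleyGraph S).edgeSet → Bool)) : Prop :=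
  ∃ Φ : (Γ → unitInterval) → ((cayleyGraph S).edgeSet → Bool), Measurable Φ ∧
    (∀ (γ : Γ) (U : Γ → unitInterval),
      Φ (fun x => U (γ⁻¹ * x)) = fun e => Φ U ((leftMul S γ⁻¹).mapEdgeSet e)) ∧
    (iidUniform Γ).map Φ = μ

open Classical in
/-- The adjacency matrix of a graph with vertex set `ℕ`. -/
noncomputable def code (G : SimpleGraph ℕ) : ℕ → ℕ → Bool := fun x y => decide (G.Adj x y)

section proofs

open Vale.Agent.P143 (Phi measurable_Phi Phi_map main_law exists_exhaustion measure_unique
  countable_of_connected)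

lemma measurable_factor_apply {V : Type*} [Countable V] (G : SimpleGraph V)
    {j : unitInterval → (ℕ → ℝ)} (hj : Measurable j) (e : Sym2 V) :
    Measurable fun U : V → unitInterval => Phi j (Vale.Agent.P143.code G) U e := by
  have h1 : Measurable fun U : V → unitInterval =>
      ((Vale.Agent.P143.code G, U) : (V → V → Bool) × (V → unitInterval)) :=
    measurable_const.prodMk measurable_id
  have h2 : Measurable ((fun p : (V → V → Bool) × (V → unitInterval) => Phi j p.1 p.2 e) ∘
      (fun U : V → unitInterval =>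
        ((Vale.Agent.P143.code G, U) : (V → V → Bool) × (V → unitInterval)))) :=
    (measurable_Phi hj e).comp h1
  exact h2

lemma measurable_factor {V : Type*} [Countable V] (G : SimpleGraph V)
    {j : unitInterval → (ℕ → ℝ)} (hj : Measurable j) :
    Measurable fun (U : V → unitInterval) (e : G.edgeSet) =>
      Phi j (Vale.Agent.P143.code G) U e := by
  rw [measurable_pi_iff]
  intro e
  exact measurable_factor_apply G hj e

lemma measurableSet_cyl {ι : Type*} (A : Finset ι) (η : ι → Bool) :
    MeasurableSet {ω : ι → Bool | ∀ e ∈ A, ω e = η e} := by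
  have : {ω : ι → Bool | ∀ e ∈ A, ω e = η e} = ⋂ e ∈ A, {ω | ω e = η e} := by
    ext ω
    simp
  rw [this]
  apply Finset.measurableSet_biInter
  intro e _
  exact (measurable_pi_apply (X := fun _ : ι => Bool) e) (measurableSet_singleton (η e))

lemma isFUSF_law {V : Type*} [Countable V] (G : SimpleGraph V)
    (hlf : ∀ v, (G.neighborSet v).Finite) {j : unitInterval → (ℕ → ℝ)} (hj : Measurable j)
    (hmap : (volume : Measure unitInterval).map j = Vale.Agent.P161.PP ℕ) :
    IsFUSF G ((iidUniform V).map fun U (e : G.edgeSet) =>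
      Phi j (Vale.Agent.P143.code G) U e) := by
  have hm := measurable_factor G hj
  have hprob : IsProbabilityMeasure (iidUniform V) := by
    unfold iidUniform
    infer_instance
  refine ⟨Measure.isProbabilityMeasure_map hm.aemeasurable, ?_⟩
  rintro H ⟨h1, h2, h3, h4⟩ A η
  rw [map_measureReal_apply hm (measurableSet_cyl A η)]
  exact main_law G hlf hj hmap H h1 h2 h3 h4 A η

lemma unique_FUSF {V : Type*} {G : SimpleGraph V} (hG : G.Connected)
    (hlf : ∀ v, (G.neighborSet v).Finite) {μ ν : Measure (G.edgeSet → Bool)} (hμ : IsFUSF G μ)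
    (hν : IsFUSF G ν) : ν = μ := by
  obtain ⟨H, hH⟩ := exists_exhaustion hG hlf
  have := hμ.1
  have := hν.1
  apply measure_unique
  intro A η
  exact tendsto_nhds_unique (hν.2 H hH A η) (hμ.2 H hH A η)

lemma main_fixed {V : Type*} (G : SimpleGraph V) (hG : G.Connected)
    (hlf : ∀ v, (G.neighborSet v).Finite) {j : unitInterval → (ℕ → ℝ)} (hj : Measurable j)
    (hmap : (volume : Measure unitInterval).map j = Vale.Agent.P161.PP ℕ) :
    ∃ μ : Measure (G.edgeSet → Bool), IsFUSF G μ ∧ (∀ ν, IsFUSF G ν → ν = μ) ∧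
      IsFactorOfIID G μ := by
  have := countable_of_connected hG hlf
  have h1 := isFUSF_law G hlf hj hmap
  refine ⟨_, h1, fun ν hν => unique_FUSF hG hlf h1 hν, _, measurable_factor G hj, ?_, rfl⟩
  intro g U
  funext e
  have h2 := Phi_map j g.symm.toEquiv (Vale.Agent.P143.code G) U (e : Sym2 V)
  have h3 : (fun x y => Vale.Agent.P143.code G (g.symm.toEquiv x) (g.symm.toEquiv y))
      = Vale.Agent.P143.code G := by
    funext x y
    unfold Vale.Agent.P143.code
    exact decide_eq_decide.mpr g.symm.map_adj_iff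
  rw [h3] at h2
  exact h2.symm

lemma cayley_locallyFinite {Γ : Type*} [Group Γ] (S : Set Γ) (hS : S.Finite) (x : Γ) :
    ((cayleyGraph S).neighborSet x).Finite := by
  apply ((hS.image fun s => x * s).union (hS.image fun s => x * s⁻¹)).subset
  rintro y ⟨_, h | h⟩
  · left
    exact ⟨x⁻¹ * y, h, by simp⟩
  · right
    exact ⟨y⁻¹ * x, h, by simp⟩

lemma cayley_connected {Γ : Type*} [Group Γ] (S : Set Γ) (hS : Subgroup.closure S = ⊤) :
    (cayleyGraph S).Connected := by
  have key : ∀ g ∈ Subgroup.closure S, ∀ x : Γ, (cayleyGraph S).Reachable x (x * g) := by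
    intro g hg
    induction hg using Subgroup.closure_induction with
    | mem s hs =>
      intro x
      by_cases h : x = x * s
      · rw [← h]
      · apply Adj.reachable
        refine ⟨h, Or.inl ?_⟩
        rwa [inv_mul_cancel_left]
    | one =>
      intro x
      rw [mul_one]
    | mul g h _ _ ihg ihh =>
      intro x
      rw [← mul_assoc]
      exact (ihg x).trans (ihh _)
    | inv g _ ih =>
      intro x
      have := ih (x * g⁻¹)
      rw [inv_mul_cancel_right] at this
      exact this.symm
  have : Nonempty Γ := ⟨1⟩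
  refine ⟨fun x y => ?_⟩
  have := key (x⁻¹ * y) (by rw [hS]; trivial) x
  rwa [mul_inv_cancel_left] at this

end proofs

open Vale.Agent.P143 (Phi measurable_Phi Phi_map) in
/-- The free uniform spanning forest is a factor of IID on every graph.
1. For every connected locally finite graph `G` the law `FUSF_G` exists, is unique, and is an
`Aut(G)`-factor of IID.
2. For every Cayley graph of every finitely generated group `Γ`, it is a `Γ`-factor of IID.
3. The free uniform spanning forest is a graph factor of IID, simultaneously for all connected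
locally finite graphs: there is one Borel function `Φ(G, U, e) ∈ {0,1}` which only depends on the
isomorphism class of the vertex-labelled graph `(G, U)` with the distinguished edge `e`, such
that for every such `G`, the set of the edges `e` of `G` with `Φ(G, U, e) = 1` has law `FUSF_G`. -/
theorem result :
    (∀ (V : Type*) (G : SimpleGraph V), G.Connected → (∀ v, (G.neighborSet v).Finite) →
      ∃ μ : Measure (G.edgeSet → Bool), IsFUSF G μ ∧ (∀ ν, IsFUSF G ν → ν = μ) ∧
        IsFactorOfIID G μ) ∧
    (∀ (Γ : Type*) [Group Γ] (S : Set Γ), S.Finite → Subgroup.closure S = ⊤ →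
      ∃ μ : Measure ((cayleyGraph S).edgeSet → Bool), IsFUSF (cayleyGraph S) μ ∧
        (∀ ν, IsFUSF (cayleyGraph S) ν → ν = μ) ∧ IsGroupFactorOfIID S μ) ∧
    (∃ Φ : (ℕ → ℕ → Bool) → (ℕ → unitInterval) → Sym2 ℕ → Bool,
      (∀ e : Sym2 ℕ, Measurable fun p : (ℕ → ℕ → Bool) × (ℕ → unitInterval) => Φ p.1 p.2 e) ∧
      (∀ (G G' : SimpleGraph ℕ) (g : G ≃g G') (U : ℕ → unitInterval) (e : Sym2 ℕ),
        Φ (code G') (fun v => U (g.symm v)) (e.map g) = Φ (code G) U e) ∧
      ∀ G : SimpleGraph ℕ, G.Connected → (∀ v, (G.neighborSet v).Finite) →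
        IsFUSF G ((iidUniform ℕ).map fun U (e : G.edgeSet) => Φ (code G) U e)) := by
  obtain ⟨j, hj, hmap⟩ := Measure.exists_measurable_map_eq (Vale.Agent.P161.PP ℕ)
  refine ⟨fun V G hG hlf => ?_, fun Γ _ S hS hgen => ?_, ?_⟩
  · exact main_fixed G hG hlf hj hmap
  · obtain ⟨μ, h1, h2, Φ, h3, h4, h5⟩ :=
      main_fixed (cayleyGraph S) (cayley_connected S hgen) (cayley_locallyFinite S hS) hj hmap
    refine ⟨μ, h1, h2, Φ, h3, fun γ U => ?_, h5⟩
    have h6 := h4 (leftMul S γ) U
    have h7 : (fun x => U (γ⁻¹ * x)) = fun x => U ((leftMul S γ).symm x) := rfl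
    rw [h7, h6]
    funext e
    congr 1
  · refine ⟨fun a U e => Phi j a U e, fun e => measurable_Phi hj e, ?_, ?_⟩
    · intro G G' g U e
      have h1 := Phi_map j g.toEquiv (code G') (fun v => U (g.symm v)) e
      have h2 : (fun x y => code G' (g.toEquiv x) (g.toEquiv y)) = code G := by
        funext x y
        unfold code
        exact decide_eq_decide.mpr g.map_adj_iff
      have h3 : (fun v => U (g.symm (g.toEquiv v))) = U := by
        funext v
        exact congrArg U (g.symm_apply_apply v)
      rw [h2, h3] at h1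
      exact h1
    · intro G hG hlf
      exact isFUSF_law G hlf hj hmap

end Vale.Agent.Results.P143.FactorOfIID
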